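import Vale.Agent.Lib.P256.Main

/-!
# P256: hyperbolicity cones of `det (t² I - t L(y) - A(y))` with `A` a positive map

Let `L i` be real symmetric `N × N` matrices and let `B i j` be real symmetric `N × N` matrices such
that `A(y) = ∑ i j, y i y j • B i j` is positive semidefinite for all real `y`
(no sum-of-squares factorisation of `A` is assumed).
Then `p = det (t² I - t L(y) - A(y))` is hyperbolic with respect to `e = (1, 0, ..., 0)`, and its
hyperbolicity cone is a spectrahedral shadow.
-/

namespace Vale.Agent.Results.P256.APositiveMapPencil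

open Vale.Agent.Lib.P256

/-- For symmetric `L i`, `B i j` with `A(y) = ∑ y i y j B i j ⪰ 0` for all `y`, the polynomial
`det (X₀² I - X₀ ∑ X_{i+1} L i - ∑ X_{i+1} X_{j+1} B i j)` is hyperbolic in direction
`(1, 0, ..., 0)` and its closed hyperbolicity cone is a spectrahedral shadow. -/
theorem result (m N : ℕ) (hN : 0 < N) (L : Fin m → Matrix (Fin N) (Fin N) ℝ)
    (B : Fin m → Fin m → Matrix (Fin N) (Fin N) ℝ) (hL : ∀ i, (L i).IsSymm)
    (hB : ∀ i j, (B i j).IsSymm)
    (hA : ∀ y : Fin m → ℝ, (∑ i, ∑ j, (y i * y j) • B i j).PosSemidef) :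
    IsHyperbolic (pencilPoly L B) (eDir m) ∧
      IsSpectrahedralShadow (hypCone (pencilPoly L B) (eDir m)) :=
  pencil_main hN L B hL hB hA

end Vale.Agent.Results.P256.APositiveMapPencil
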